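import Crest.Agent.R193.A.Seq

/-!
# R193/A/Act: a metric sphere of sequences with a compatible action carries a hyperbolic action
-/

set_option autoImplicit false
open Set Filter Topology

namespace Crest.Agent.R193.A

open Crest.GroupTheory

variable {G : Type} [Group G] {S : Set G} {δ ε : ℝ}

namespace Hyp

variable (H : Hyp S δ ε)
include H

variable {Z : Type} [MetricSpace Z] [MulAction G Z] {rep : Z → ℕ → G}

theorem exists_ctr (hd : ∀ a b : Z, dist a b ≤ q S ε 1 (rep a) (rep b))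
    (hact : ∀ (g : G) (ξ : Z), q S ε 1 (rep (g • ξ)) (fun n => g * rep ξ n) = 0)
    {ξ₀ η₀ : Z} (h0 : ξ₀ ≠ η₀) : ∃ M : ℝ, 2 ≤ M ∧ ∀ w : G, ∃ c : Z,
      q S ε 1 (rep c) (fun _ => w) ≤ M * Real.exp (-(ε * wordLength S w)) := by
  have hQ : 0 < q S ε 1 (rep ξ₀) (rep η₀) := (dist_pos.2 h0).trans_le (hd _ _)
  have hQ1 := H.q_le_one 1 (rep ξ₀) (rep η₀)
  set Q := q S ε 1 (rep ξ₀) (rep η₀) with hQdef
  refine ⟨4 / Q, ?_, fun w => ?_⟩
  · rw [le_div_iff₀ hQ]; linarith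
  have h1 : ∃ ξ : Z, Q ≤ 2 * q S ε 1 (rep ξ) (fun _ => w⁻¹) := by
    have := H.q_tri2 1 (rep ξ₀) (fun _ => w⁻¹) (rep η₀)
    rcases le_total (q S ε 1 (rep ξ₀) (fun _ => w⁻¹)) (q S ε 1 (fun _ => w⁻¹) (rep η₀)) with h | h
    · rw [max_eq_right h, H.q_comm 1 (fun _ => w⁻¹)] at this
      exact ⟨η₀, this⟩
    · rw [max_eq_left h] at this
      exact ⟨ξ₀, this⟩
  obtain ⟨ξ, hξ⟩ := h1
  refine ⟨w • ξ, ?_⟩
  have h2 := q_mul (S := S) (ε := ε) w 1 (rep ξ) (fun _ => w⁻¹)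
  simp only [mul_one, mul_inv_cancel] at h2
  have h3 := H.q_base 1 w (fun n => w * rep ξ n) (fun _ => 1)
  rw [h2, H.q_comm 1 (fun _ => 1), H.q_const_self, H.q_const_self, wd_one_right H.gen,
    mul_one, one_mul] at h3
  have h4 := H.q_congr_left (fun _ => w) (hact w ξ)
  have h5 := H.q_nonneg 1 (fun n => w * rep ξ n) (fun _ => w)
  rw [div_mul_eq_mul_div, le_div_iff₀ hQ, ← h3]
  have h6 := H.q_nonneg 1 (rep (w • ξ)) (fun _ => w)
  calc q S ε 1 (rep (w • ξ)) (fun _ => w) * Q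
      ≤ (2 * q S ε 1 (fun n => w * rep ξ n) (fun _ => w)) * (2 * q S ε 1 (rep ξ) (fun _ => w⁻¹)) :=
        mul_le_mul h4 hξ hQ.le (by linarith)
    _ = _ := by ring

omit [MulAction G Z] in
theorem cmp (hd : ∀ a b : Z, dist a b ≤ q S ε 1 (rep a) (rep b))
    (hd' : ∀ a b : Z, q S ε 1 (rep a) (rep b) ≤ 2 * dist a b) {M : ℝ} (hM : 2 ≤ M) {w : G} {c : Z}
    (hc : q S ε 1 (rep c) (fun _ => w) ≤ M * Real.exp (-(ε * wordLength S w))) (y : Z) :
    q S ε 1 (rep y) (fun _ => w) ≤ 2 * M * max (dist y c) (Real.exp (-(ε * wordLength S w))) ∧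
    max (dist y c) (Real.exp (-(ε * wordLength S w))) ≤ 2 * M * q S ε 1 (rep y) (fun _ => w) := by
  have hr : 0 < Real.exp (-(ε * wordLength S w)) := Real.exp_pos _
  have h1 := H.q_const_ge 1 w (rep y)
  rw [wd_one_right H.gen] at h1
  set r := Real.exp (-(ε * wordLength S w))
  have hm1 := le_max_left (dist y c) r
  have hm2 := le_max_right (dist y c) r
  have hdy := dist_nonneg (x := y) (y := c)
  constructor
  · have := H.q_tri2 1 (rep y) (rep c) (fun _ => w)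
    refine this.trans ?_
    rw [mul_assoc]
    refine mul_le_mul_of_nonneg_left (max_le ?_ ?_) (by norm_num)
    · have := hd' y c
      nlinarith
    · exact hc.trans (mul_le_mul_of_nonneg_left hm2 (by linarith))
  · refine max_le ?_ (by nlinarith)
    have := H.q_tri2 1 (rep y) (fun _ => w) (rep c)
    refine (hd y c).trans (this.trans ?_)
    rw [mul_assoc]
    refine mul_le_mul_of_nonneg_left (max_le (by nlinarith) ?_) (by norm_num)
    rw [H.q_comm]
    exact hc.trans (mul_le_mul_of_nonneg_left h1 (by linarith))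

theorem ad_of (hd : ∀ a b : Z, dist a b ≤ q S ε 1 (rep a) (rep b))
    (hd' : ∀ a b : Z, q S ε 1 (rep a) (rep b) ≤ 2 * dist a b)
    (hact : ∀ (g : G) (ξ : Z), q S ε 1 (rep (g • ξ)) (fun n => g * rep ξ n) = 0)
    {M : ℝ} (hM : 2 ≤ M) {g : G} {c : Z}
    (hc : q S ε 1 (rep c) (fun _ => g⁻¹) ≤ M * Real.exp (-(ε * wordLength S g⁻¹))) :
    Ad (16 * M ^ 2) g c (Real.exp (-(ε * wordLength S g⁻¹))) := by
  intro y z
  obtain ⟨a1, a2⟩ := H.cmp hd hd' hM hc y
  obtain ⟨b1, b2⟩ := H.cmp hd hd' hM hc z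
  have h1 := q_mul (S := S) (ε := ε) g g⁻¹ (rep y) (rep z)
  rw [mul_inv_cancel] at h1
  have h2 := H.q_congr (hact g y) (hact g z)
  have h3 := H.q_congr (H.q_zero_symm (hact g y)) (H.q_zero_symm (hact g z))
  rw [h1] at h2 h3
  have h4 := H.q_base 1 g⁻¹ (rep y) (rep z)
  rw [wd_one_right H.gen] at h4
  have hr : 0 < Real.exp (-(ε * wordLength S g⁻¹)) := Real.exp_pos _
  set r := Real.exp (-(ε * wordLength S g⁻¹))
  have hp := H.q_nonneg g⁻¹ (rep y) (rep z)
  have hay := H.q_nonneg 1 (rep y) (fun _ => g⁻¹)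
  have haz := H.q_nonneg 1 (rep z) (fun _ => g⁻¹)
  have e1 := hd (g • y) (g • z)
  have e2 := hd' (g • y) (g • z)
  have e3 := hd y z
  have e4 := hd' y z
  set p := q S ε g⁻¹ (rep y) (rep z)
  set ay := q S ε 1 (rep y) (fun _ => g⁻¹)
  set az := q S ε 1 (rep z) (fun _ => g⁻¹)
  have hmy : 0 ≤ max (dist y c) r := hr.le.trans (le_max_right _ _)
  have hmz : 0 ≤ max (dist z c) r := hr.le.trans (le_max_right _ _)
  set my := max (dist y c) r
  set mz := max (dist z c) r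
  have hD := dist_nonneg (x := g • y) (y := g • z)
  set D := dist (g • y) (g • z)
  have hM0 : 0 ≤ M := by linarith
  constructor
  · calc D * (my * mz) ≤ (2 * p) * ((2 * M * ay) * (2 * M * az)) :=
          mul_le_mul (e1.trans h2) (mul_le_mul a2 b2 hmz (by positivity)) (by positivity)
            (by positivity)
      _ = 8 * M ^ 2 * (p * ay * az) := by ring
      _ = 8 * M ^ 2 * (q S ε 1 (rep y) (rep z) * r) := by rw [h4]
      _ ≤ 8 * M ^ 2 * ((2 * dist y z) * r) := by gcongr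
      _ = _ := by ring
  · calc r * dist y z ≤ r * q S ε 1 (rep y) (rep z) := by gcongr
      _ = p * (ay * az) := by rw [← mul_assoc, h4, mul_comm]
      _ ≤ (4 * D) * ((2 * M * my) * (2 * M * mz)) :=
          mul_le_mul (by linarith) (mul_le_mul a1 b1 haz (by positivity)) (by positivity)
            (by positivity)
      _ = _ := by ring

theorem HA_of (hd : ∀ a b : Z, dist a b ≤ q S ε 1 (rep a) (rep b))
    (hd' : ∀ a b : Z, q S ε 1 (rep a) (rep b) ≤ 2 * dist a b)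
    (hact : ∀ (g : G) (ξ : Z), q S ε 1 (rep (g • ξ)) (fun n => g * rep ξ n) = 0)
    (hray : ∀ ξ : Z, ∃ γ : CayleyRay S, γ.toFun = rep ξ)
    (hs : Nonempty (Z ≃ₜ OnePoint ℂ)) : Nonempty (HA G Z) := by
  obtain ⟨e⟩ := hs
  have h0 : e.symm OnePoint.infty ≠ e.symm ((0 : ℂ) : OnePoint ℂ) := fun h =>
    OnePoint.infty_ne_coe (0 : ℂ) (e.symm.injective h)
  obtain ⟨M, hM, hc⟩ := H.exists_ctr hd hact h0
  choose c hc using hc
  have hθ : ∀ n : ℕ, Real.exp (-ε) ^ n = Real.exp (-(ε * n)) := fun n => by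
    rw [← Real.exp_nat_mul]; congr 1; ring
  refine ⟨{
    C := 16 * M ^ 2
    θ := Real.exp (-ε)
    len := wordLength S
    ctr := fun g => c g⁻¹
    one_le_C := by nlinarith
    θ_pos := Real.exp_pos _
    θ_lt := Real.exp_lt_one_iff.2 (by have := H.ε0; linarith)
    len_mul := wl_mul H.gen
    len_inv := wl_inv H.gen
    fin_ball := wl_fin H.gen H.fin
    ad := fun g => ?_
    surj := fun x n => ?_
    dist_le := fun x y => (hd x y).trans (H.q_le_one _ _ _)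
    sph := ⟨e⟩ }⟩
  · rw [hθ, ← wl_inv H.gen g]
    exact H.ad_of hd hd' hact hM (hc g⁻¹)
  · obtain ⟨γ, hγ⟩ := hray x
    refine ⟨(γ.toFun n)⁻¹, by rw [wl_inv H.gen, ray_len], ?_⟩
    rw [inv_inv, hθ, dist_comm]
    have h1 := (H.cmp hd hd' hM (hc (γ.toFun n)) x).2
    have h2 := H.ray_const γ n
    rw [hγ] at h2
    rw [hγ] at h1 ⊢
    have hr : 0 < Real.exp (-(ε * n)) := Real.exp_pos _
    calc _ ≤ _ := le_max_left _ _
      _ ≤ _ := h1
      _ ≤ 2 * M * Real.exp (-(ε * n)) := mul_le_mul_of_nonneg_left h2 (by linarith)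
      _ ≤ _ := mul_le_mul_of_nonneg_right (by nlinarith) hr.le

end Hyp

end Crest.Agent.R193.A
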