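import Crest.Agent.R193.A.Seq

/-!
# R193/A/Bd: the action of the group and the visual metric on the boundary
-/

set_option autoImplicit false
open Set Filter Topology

namespace Crest.Agent.R193.A

open Crest.GroupTheory

variable {G : Type} [Group G] {S : Set G} {δ ε : ℝ}

/-- a chosen ray representing a boundary point -/
noncomputable def ray (ξ : CayleyBoundary S) : CayleyRay S :=
  Quot.out (r := CayleyRay.IsAsymptotic (S := S)) ξ

theorem mk_ray (ξ : CayleyBoundary S) : (Quot.mk _ (ray ξ) : CayleyBoundary S) = ξ :=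
  Quot.out_eq (r := CayleyRay.IsAsymptotic (S := S)) ξ

namespace Hyp

variable (H : Hyp S δ ε)
include H

theorem eq_iff (ξ η : CayleyBoundary S) : ξ = η ↔ q S ε 1 (ray ξ).toFun (ray η).toFun = 0 := by
  rw [← H.mk_eq_iff, mk_ray, mk_ray]
  exact Iff.rfl

theorem ray_of_mk {γ : CayleyRay S} {ξ : CayleyBoundary S} (h : Quot.mk _ γ = ξ) :
    q S ε 1 (ray ξ).toFun γ.toFun = 0 := by
  rw [← H.mk_eq_iff, mk_ray]
  exact h.symm

theorem exists_act (g : G) (ξ : CayleyBoundary S) : ∃ η : CayleyBoundary S,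
    q S ε 1 (ray η).toFun (fun n => g * (ray ξ).toFun n) = 0 := by
  obtain ⟨γ, hγ⟩ := H.exists_ray_q (H.q_zero_mul g (H.ray_self (ray ξ)))
  exact ⟨Quot.mk _ γ, H.q_zero_trans (H.ray_of_mk rfl) hγ⟩

theorem exists_mulAction : ∃ A : MulAction G (CayleyBoundary S), ∀ (g : G) (ξ : CayleyBoundary S),
    q S ε 1 (ray (A.smul g ξ)).toFun (fun n => g * (ray ξ).toFun n) = 0 := by
  choose act hact using H.exists_act
  have h1 : ∀ ξ, act 1 ξ = ξ := fun ξ => by
    rw [H.eq_iff]
    simpa using hact 1 ξ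
  have h2 : ∀ g h ξ, act (g * h) ξ = act g (act h ξ) := fun g h ξ => by
    rw [H.eq_iff]
    have a := hact (g * h) ξ
    have b := hact g (act h ξ)
    have c := H.q_zero_mul g (hact h ξ)
    simp only [← mul_assoc] at c
    exact H.q_zero_trans a (H.q_zero_symm (H.q_zero_trans b c))
  exact ⟨{ smul := act, one_smul := h1, mul_smul := h2 }, hact⟩

theorem q_le_of_product {ξ η : CayleyBoundary S} {N : ℝ}
    (h : (N : EReal) < CayleyBoundary.product ξ η) :
    q S ε 1 (ray ξ).toFun (ray η).toFun ≤ 2 * Real.exp (-(ε * N)) := by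
  unfold CayleyBoundary.product at h
  obtain ⟨γ, h⟩ := lt_iSup_iff.1 h
  obtain ⟨γ', h⟩ := lt_iSup_iff.1 h
  have h1 := H.q_le_of_liminf h
  have h2 := H.q_congr (H.ray_of_mk γ.2) (H.ray_of_mk γ'.2)
  linarith

theorem product_of_q_lt {ξ η : CayleyBoundary S} {N : ℝ}
    (h : q S ε 1 (ray ξ).toFun (ray η).toFun < Real.exp (-(ε * N))) :
    (N : EReal) < CayleyBoundary.product ξ η := by
  unfold CayleyBoundary.product
  exact lt_iSup_iff.2 ⟨⟨ray ξ, mk_ray ξ⟩, lt_iSup_iff.2 ⟨⟨ray η, mk_ray η⟩, H.liminf_of_q_lt h⟩⟩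

theorem exists_metric : ∃ m : MetricSpace (CayleyBoundary S),
    m.toPseudoMetricSpace.toUniformSpace.toTopologicalSpace = CayleyBoundary.instTopologicalSpace ∧
    (∀ a b, m.dist a b ≤ q S ε 1 (ray a).toFun (ray b).toFun) ∧
    ∀ a b, q S ε 1 (ray a).toFun (ray b).toFun ≤ 2 * m.dist a b := by
  let d : CayleyBoundary S → CayleyBoundary S → NNReal := fun a b =>
    ⟨q S ε 1 (ray a).toFun (ray b).toFun, H.q_nonneg _ _ _⟩
  have d0 : ∀ a, d a a = 0 := fun a => NNReal.eq (H.ray_self _)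
  have d1 : ∀ a b, d a b = d b a := fun a b => NNReal.eq (H.q_comm _ _ _)
  have d2 : ∀ a b c e, d a e ≤ 2 * max (d a b) (max (d b c) (d c e)) := fun a b c e => by
    rw [← NNReal.coe_le_coe]
    push_cast
    exact H.q_four _ _ _ _ _
  let p : PseudoMetricSpace (CayleyBoundary S) := PseudoMetricSpace.ofPreNNDist d d0 d1
  have h1 : ∀ a b, p.dist a b ≤ q S ε 1 (ray a).toFun (ray b).toFun := fun a b =>
    PseudoMetricSpace.dist_ofPreNNDist_le d d0 d1 a b
  have h2 : ∀ a b, q S ε 1 (ray a).toFun (ray b).toFun ≤ 2 * p.dist a b := fun a b =>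
    PseudoMetricSpace.le_two_mul_dist_ofPreNNDist d d0 d1 d2 a b
  let m : MetricSpace (CayleyBoundary S) :=
    { p with
      eq_of_dist_eq_zero := fun {a b} h => by
        rw [H.eq_iff]
        have h3 := h2 a b
        have h4 : p.dist a b = 0 := h
        rw [h4, mul_zero] at h3
        exact le_antisymm h3 (H.q_nonneg _ _ _) }
  refine ⟨m, ?_, h1, h2⟩
  ext U
  have e1 := @Metric.isOpen_iff _ p U
  refine e1.trans ?_
  show _ ↔ ∀ ξ ∈ U, ∃ N : ℕ, ∀ η, ((N : ℝ) : EReal) < CayleyBoundary.product ξ η → η ∈ U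
  refine forall₂_congr fun ξ _ => ⟨?_, ?_⟩
  · rintro ⟨r, hr, hU⟩
    obtain ⟨N, hN⟩ := H.exists_exp_lt (half_pos hr)
    refine ⟨N, fun η hη => hU ?_⟩
    have a := H.q_le_of_product hη
    have b := h1 η ξ
    rw [H.q_comm] at b
    show p.dist η ξ < r
    linarith
  · rintro ⟨N, hN⟩
    refine ⟨Real.exp (-(ε * N)) / 2, half_pos (Real.exp_pos _), fun η hη => hN η ?_⟩
    apply H.product_of_q_lt
    have a : p.dist η ξ < Real.exp (-(ε * N)) / 2 := hη
    have b := h2 η ξ
    rw [H.q_comm] at b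
    linarith

end Hyp

end Crest.Agent.R193.A
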