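import Crest.Agent.R193.A.Act
import Crest.Agent.R193.A.Bd

/-!
# R193/A/Main: the boundary as a metric sphere with a hyperbolic action.  Blueprint: notes193/R193.md.  The statements below are FROZEN; the block owner fills them.
-/

set_option autoImplicit false
open Set Metric Filter Topology MeasureTheory

namespace Crest.Agent.R193

open Crest.GroupTheory

theorem exists_HA (G : Type) [Group G] (S : Finset G) (hS : Subgroup.closure (S : Set G) = ⊤)
    (hδ : ∃ δ : ℝ, 0 ≤ δ ∧ ∀ w x y z : G,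
      min (gromovProduct (S : Set G) w x y) (gromovProduct (S : Set G) w y z) - δ ≤
        gromovProduct (S : Set G) w x z)
    (hB : Nonempty (CayleyBoundary (S : Set G) ≃ₜ Metric.sphere (0 : EuclideanSpace ℝ (Fin 3)) 1)) :
    ∃ (Z : Type) (_ : MetricSpace Z) (_ : CompactSpace Z) (_ : MulAction G Z),
      Nonempty (HA G Z) := by
  obtain ⟨δ, hδ0, hδ⟩ := hδ
  have hl : 0 < Real.log 2 := Real.log_pos (by norm_num)
  have H : A.Hyp (S : Set G) δ (Real.log 2 / (2 * δ + 1)) := by
    refine ⟨hS, S.finite_toSet, hδ0, hδ, by positivity, ?_⟩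
    rw [← Real.exp_add]
    refine le_trans (Real.exp_le_exp.2 ?_) (Real.exp_log (by norm_num : (0 : ℝ) < 2)).le
    rw [← mul_add, div_mul_eq_mul_div, div_le_iff₀ (by positivity)]
    nlinarith
  obtain ⟨m, hm, hd, hd'⟩ := H.exists_metric
  obtain ⟨act, hact⟩ := H.exists_mulAction
  obtain ⟨e⟩ := hB
  have e' : OnePoint ℂ ≃ₜ Metric.sphere (0 : EuclideanSpace ℝ (Fin 3)) 1 :=
    onePointEquivSphereOfFinrankEq (by simp)
  have hs : Nonempty (@Homeomorph (CayleyBoundary (S : Set G)) (OnePoint ℂ)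
      m.toPseudoMetricSpace.toUniformSpace.toTopologicalSpace _) := by
    rw [hm]
    exact ⟨e.trans e'.symm⟩
  have hc : @CompactSpace (CayleyBoundary (S : Set G))
      m.toPseudoMetricSpace.toUniformSpace.toTopologicalSpace := by
    rw [hm]
    exact e.symm.compactSpace
  exact ⟨CayleyBoundary (S : Set G), m, hc, act,
    @A.Hyp.HA_of G _ _ _ _ H _ m act (fun ξ => (A.ray ξ).toFun) hd hd' hact
      (fun ξ => ⟨A.ray ξ, rfl⟩) hs⟩

end Crest.Agent.R193
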