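import Crest.Agent.R193.A.Word

/-!
# R193/A/Seq: ultralimits of `exp (-ε (x n | y n)_w)` for arbitrary sequences
-/

set_option autoImplicit false
open Set Filter Topology

namespace Crest.Agent.R193.A

open Crest.GroupTheory

variable {G : Type} [Group G] {S : Set G} {δ ε : ℝ}

/-- standing hypotheses -/
structure Hyp (S : Set G) (δ ε : ℝ) : Prop where
  gen : Subgroup.closure S = ⊤
  fin : S.Finite
  δ0 : 0 ≤ δ
  four : ∀ w x y z : G, min (gromovProduct S w x y) (gromovProduct S w y z) - δ ≤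
    gromovProduct S w x z
  ε0 : 0 < ε
  small : Real.exp (ε * δ) * Real.exp (ε * δ) ≤ 2

theorem U_le : 𝒰 ≤ atTop := Nat.hyperfilter_le_atTop

/-- ultralimit of `exp (-ε (x n | y n)_w)` -/
noncomputable def q (S : Set G) (ε : ℝ) (w : G) (x y : ℕ → G) : ℝ :=
  limUnder 𝒰 (fun n => Real.exp (-(ε * gromovProduct S w (x n) (y n))))

namespace Hyp

variable (H : Hyp S δ ε)
include H

theorem term_le_one (w x y : G) : Real.exp (-(ε * gromovProduct S w x y)) ≤ 1 := by
  rw [Real.exp_le_one_iff]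
  have := mul_nonneg H.ε0.le (gp_nonneg H.gen w x y)
  linarith

theorem tendsto_q (w : G) (x y : ℕ → G) :
    Tendsto (fun n => Real.exp (-(ε * gromovProduct S w (x n) (y n)))) 𝒰 (𝓝 (q S ε w x y)) := by
  apply tendsto_nhds_limUnder
  obtain ⟨a, -, ha⟩ := (isCompact_Icc (a := (0 : ℝ)) (b := 1)).ultrafilter_le_nhds
    (Ultrafilter.map (fun n => Real.exp (-(ε * gromovProduct S w (x n) (y n)))) (hyperfilter ℕ))
    (by
      rw [le_principal_iff, Ultrafilter.coe_map, Filter.mem_map]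
      exact Filter.mem_of_superset Filter.univ_mem fun n _ =>
        ⟨(Real.exp_pos _).le, H.term_le_one _ _ _⟩)
  exact ⟨a, ha⟩

theorem q_nonneg (w : G) (x y : ℕ → G) : 0 ≤ q S ε w x y :=
  ge_of_tendsto' (H.tendsto_q w x y) fun _ => (Real.exp_pos _).le

theorem q_le_one (w : G) (x y : ℕ → G) : q S ε w x y ≤ 1 :=
  le_of_tendsto' (H.tendsto_q w x y) fun _ => H.term_le_one _ _ _

theorem q_comm (w : G) (x y : ℕ → G) : q S ε w x y = q S ε w y x := by
  unfold q
  simp only [gp_comm H.gen w (x _) (y _)]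

omit H in
theorem q_mul (g w : G) (x y : ℕ → G) :
    q S ε (g * w) (fun n => g * x n) (fun n => g * y n) = q S ε w x y := by
  unfold q
  simp only [gp_mul]

theorem one_le_K : 1 ≤ Real.exp (ε * δ) := Real.one_le_exp (mul_nonneg H.ε0.le H.δ0)

theorem K_le : Real.exp (ε * δ) ≤ 2 := by
  have := H.one_le_K
  have := H.small
  nlinarith

theorem q_tri (w : G) (x y z : ℕ → G) :
    q S ε w x z ≤ Real.exp (ε * δ) * max (q S ε w x y) (q S ε w y z) := by
  refine le_of_tendsto_of_tendsto' (H.tendsto_q w x z)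
    (((H.tendsto_q w x y).max (H.tendsto_q w y z)).const_mul _) fun n => ?_
  have h := H.four w (x n) (y n) (z n)
  have hε := H.ε0
  rcases le_total (gromovProduct S w (x n) (y n)) (gromovProduct S w (y n) (z n)) with h1 | h1
  · rw [min_eq_left h1] at h
    refine le_trans ?_ (mul_le_mul_of_nonneg_left (le_max_left _ _) (Real.exp_pos _).le)
    rw [← Real.exp_add]
    exact Real.exp_le_exp.2 (by nlinarith)
  · rw [min_eq_right h1] at h
    refine le_trans ?_ (mul_le_mul_of_nonneg_left (le_max_right _ _) (Real.exp_pos _).le)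
    rw [← Real.exp_add]
    exact Real.exp_le_exp.2 (by nlinarith)

theorem q_tri2 (w : G) (x y z : ℕ → G) :
    q S ε w x z ≤ 2 * max (q S ε w x y) (q S ε w y z) :=
  (H.q_tri w x y z).trans
    (mul_le_mul_of_nonneg_right H.K_le ((H.q_nonneg _ _ _).trans (le_max_left _ _)))

theorem q_four (w : G) (x y z u : ℕ → G) :
    q S ε w x u ≤ 2 * max (q S ε w x y) (max (q S ε w y z) (q S ε w z u)) := by
  have h1 := H.q_tri w x y u
  have h2 := H.q_tri w y z u
  have hK := H.one_le_K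
  have hs := H.small
  set K := Real.exp (ε * δ)
  set M := max (q S ε w x y) (max (q S ε w y z) (q S ε w z u))
  have hM : 0 ≤ M := (H.q_nonneg _ _ _).trans (le_max_left _ _)
  have a1 : q S ε w x y ≤ K * M := (le_max_left _ _).trans (le_mul_of_one_le_left hM hK)
  have a2 : q S ε w y u ≤ K * M :=
    h2.trans (mul_le_mul_of_nonneg_left (le_max_right _ _) (by linarith))
  calc q S ε w x u ≤ K * (K * M) :=
        h1.trans (mul_le_mul_of_nonneg_left (max_le a1 a2) (by linarith))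
    _ = (K * K) * M := by ring
    _ ≤ 2 * M := mul_le_mul_of_nonneg_right hs hM

theorem q_base (v w : G) (x z : ℕ → G) :
    q S ε w x z * q S ε v x (fun _ => w) * q S ε v z (fun _ => w) =
      q S ε v x z * Real.exp (-(ε * wordDist S w v)) := by
  refine tendsto_nhds_unique (((H.tendsto_q w x z).mul (H.tendsto_q v x _)).mul (H.tendsto_q v z _))
    (((H.tendsto_q v x z).mul_const _).congr fun n => ?_)
  rw [← Real.exp_add, ← Real.exp_add, ← Real.exp_add]
  congr 1
  have := gp_base (S := S) v w (x n) (z n)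
  linear_combination ε * this

theorem q_const_ge (w y : G) (x : ℕ → G) :
    Real.exp (-(ε * wordDist S y w)) ≤ q S ε w x (fun _ => y) := by
  refine ge_of_tendsto' (H.tendsto_q w x _) fun n => Real.exp_le_exp.2 ?_
  have := mul_le_mul_of_nonneg_left (gp_le H.gen w (x n) y) H.ε0.le
  linarith

theorem q_const_self (w : G) (x : ℕ → G) : q S ε w x (fun _ => w) = 1 := by
  refine le_antisymm (H.q_le_one _ _ _) ?_
  simpa [wd_self] using H.q_const_ge w w x

theorem q_le_of_eventually {w : G} {x y : ℕ → G} {N : ℝ}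
    (h : ∀ᶠ n in 𝒰, N ≤ gromovProduct S w (x n) (y n)) : q S ε w x y ≤ Real.exp (-(ε * N)) := by
  refine le_of_tendsto (H.tendsto_q w x y) (h.mono fun n hn => Real.exp_le_exp.2 ?_)
  have := mul_le_mul_of_nonneg_left hn H.ε0.le
  linarith

theorem eventually_of_q_lt {w : G} {x y : ℕ → G} {N : ℝ} (h : q S ε w x y < Real.exp (-(ε * N))) :
    ∀ᶠ n in 𝒰, N < gromovProduct S w (x n) (y n) := by
  refine ((H.tendsto_q w x y).eventually (gt_mem_nhds h)).mono fun n hn => ?_
  have := Real.exp_lt_exp.1 hn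
  have hε := H.ε0
  nlinarith

theorem exists_exp_lt {a : ℝ} (ha : 0 < a) : ∃ N : ℕ, Real.exp (-(ε * N)) < a := by
  have h1 : Tendsto (fun N : ℕ => ε * (N : ℝ)) atTop atTop :=
    tendsto_natCast_atTop_atTop.const_mul_atTop H.ε0
  have h2 := (Real.tendsto_exp_neg_atTop_nhds_zero.comp h1).eventually (gt_mem_nhds ha)
  exact h2.exists

theorem q_eq_zero_iff {w : G} {x y : ℕ → G} :
    q S ε w x y = 0 ↔ ∀ N : ℝ, ∀ᶠ n in 𝒰, N ≤ gromovProduct S w (x n) (y n) := by
  constructor
  · intro h N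
    exact (H.eventually_of_q_lt (N := N) (by rw [h]; exact Real.exp_pos _)).mono fun n hn => hn.le
  · intro h
    refine le_antisymm (le_of_forall_pos_le_add fun a ha => ?_) (H.q_nonneg _ _ _)
    obtain ⟨N, hN⟩ := H.exists_exp_lt ha
    have := H.q_le_of_eventually (h N)
    linarith

theorem q_zero_base {v : G} (w : G) {x y : ℕ → G} (h : q S ε v x y = 0) : q S ε w x y = 0 := by
  have h1 := H.q_base v w x y
  rw [h, zero_mul] at h1
  have a := (Real.exp_pos _).trans_le (H.q_const_ge v w x)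
  have b := (Real.exp_pos _).trans_le (H.q_const_ge v w y)
  rcases mul_eq_zero.1 h1 with h2 | h2
  · rcases mul_eq_zero.1 h2 with h3 | h3
    · exact h3
    · exact absurd h3 a.ne'
  · exact absurd h2 b.ne'

theorem q_zero_mul (g : G) {x y : ℕ → G} (h : q S ε 1 x y = 0) :
    q S ε 1 (fun n => g * x n) (fun n => g * y n) = 0 := by
  apply H.q_zero_base (v := g * 1)
  rw [q_mul, h]

theorem q_zero_symm {w : G} {x y : ℕ → G} (h : q S ε w x y = 0) : q S ε w y x = 0 := by
  rw [H.q_comm, h]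

theorem q_zero_trans {w : G} {x y z : ℕ → G} (h : q S ε w x y = 0) (h' : q S ε w y z = 0) :
    q S ε w x z = 0 := by
  have := H.q_tri2 w x y z
  rw [h, h', max_self, mul_zero] at this
  exact le_antisymm this (H.q_nonneg _ _ _)

theorem q_congr {w : G} {x x' y y' : ℕ → G} (h : q S ε w x x' = 0) (h' : q S ε w y y' = 0) :
    q S ε w x y ≤ 2 * q S ε w x' y' := by
  have := H.q_four w x x' y' y
  rw [h, H.q_zero_symm h', max_eq_left (H.q_nonneg _ _ _), max_eq_right (H.q_nonneg _ _ _)] at this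
  exact this

theorem q_congr_left {w : G} {x x' : ℕ → G} (y : ℕ → G) (h : q S ε w x x' = 0) :
    q S ε w x y ≤ 2 * q S ε w x' y := by
  have := H.q_tri2 w x x' y
  rw [h, max_eq_right (H.q_nonneg _ _ _)] at this
  exact this

/-! ### rays -/

theorem asym_iff (γ γ' : CayleyRay S) : γ.IsAsymptotic γ' ↔ q S ε 1 γ.toFun γ'.toFun = 0 := by
  rw [H.q_eq_zero_iff]
  constructor
  · rintro ⟨C, hC⟩ N
    have h1 : ∀ᶠ n : ℕ in 𝒰, N + C / 2 ≤ (n : ℝ) :=
      U_le (tendsto_natCast_atTop_atTop.eventually (eventually_ge_atTop _))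
    refine h1.mono fun n hn => ?_
    rw [ray_gp_eq H.gen]
    have := hC n
    linarith
  · intro h
    refine ⟨4 * δ, fun n => ?_⟩
    have h1 : ∀ᶠ m : ℕ in 𝒰, n ≤ m := U_le (eventually_ge_atTop _)
    obtain ⟨m, hm, hm'⟩ := (h1.and (h n)).exists
    have a1 := ray_gp H.gen γ hm
    have a2 := ray_gp H.gen γ' hm
    rw [gp_comm H.gen] at a2
    have b1 := H.four 1 (γ.toFun n) (γ.toFun m) (γ'.toFun m)
    have b2 := H.four 1 (γ.toFun n) (γ'.toFun m) (γ'.toFun n)
    rw [a1, min_eq_left hm'] at b1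
    rw [a2, ray_gp_eq H.gen γ γ' n] at b2
    have hδ := H.δ0
    have : (n : ℝ) - δ ≤ min (gromovProduct S 1 (γ.toFun n) (γ'.toFun m)) n :=
      le_min b1 (by linarith)
    linarith

theorem ray_self (γ : CayleyRay S) : q S ε 1 γ.toFun γ.toFun = 0 :=
  (H.asym_iff γ γ).1 ⟨0, fun n => by rw [wd_self]⟩

theorem mk_eq_iff (γ γ' : CayleyRay S) :
    (Quot.mk _ γ : CayleyBoundary S) = Quot.mk _ γ' ↔ q S ε 1 γ.toFun γ'.toFun = 0 := by
  have hE : Equivalence (CayleyRay.IsAsymptotic (S := S)) :=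
    ⟨fun a => (H.asym_iff a a).2 (H.ray_self a),
     fun {a b} h => (H.asym_iff b a).2 (H.q_zero_symm ((H.asym_iff a b).1 h)),
     fun {a b c} h h' => (H.asym_iff a c).2
       (H.q_zero_trans ((H.asym_iff a b).1 h) ((H.asym_iff b c).1 h'))⟩
  rw [← H.asym_iff, ← hE.eqvGen_iff]
  exact Quot.eq

theorem exists_ray_q {x : ℕ → G} (hx : q S ε 1 x x = 0) :
    ∃ γ : CayleyRay S, q S ε 1 γ.toFun x = 0 := by
  rw [H.q_eq_zero_iff] at hx
  obtain ⟨γ, hγ⟩ := exists_ray H.gen H.fin x (fun i => (hx i).mono fun n hn => by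
    rw [gp_self, wd_one_right H.gen] at hn
    exact_mod_cast hn)
  refine ⟨γ, H.q_eq_zero_iff.2 fun N => ?_⟩
  obtain ⟨i, hi⟩ := exists_nat_ge (N + δ)
  have h1 : ∀ᶠ m : ℕ in 𝒰, i ≤ m := U_le (eventually_ge_atTop _)
  filter_upwards [h1, hγ i] with n a b
  have c := ray_gp H.gen γ a
  rw [gp_comm H.gen] at c
  have d := H.four 1 (γ.toFun n) (γ.toFun i) (x n)
  rw [c, b, min_self] at d
  linarith

theorem ray_const (γ : CayleyRay S) (n : ℕ) :
    q S ε 1 γ.toFun (fun _ => γ.toFun n) ≤ Real.exp (-(ε * n)) := by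
  apply H.q_le_of_eventually
  have h1 : ∀ᶠ m : ℕ in 𝒰, n ≤ m := U_le (eventually_ge_atTop _)
  refine h1.mono fun m hm => ?_
  rw [gp_comm H.gen, ray_gp H.gen γ hm]

theorem q_le_of_liminf {γ γ' : CayleyRay S} {N : ℝ} (h : (N : EReal) < γ.productLiminf γ') :
    q S ε 1 γ.toFun γ'.toFun ≤ Real.exp (-(ε * N)) := by
  apply H.q_le_of_eventually
  have h1 := Filter.eventually_lt_of_lt_liminf h
  refine U_le (h1.mono fun n hn => ?_)
  exact (EReal.coe_lt_coe_iff.1 hn).le

theorem liminf_of_q_lt {γ γ' : CayleyRay S} {N : ℝ}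
    (h : q S ε 1 γ.toFun γ'.toFun < Real.exp (-(ε * N))) : (N : EReal) < γ.productLiminf γ' := by
  obtain ⟨n, hn⟩ := (H.eventually_of_q_lt h).exists
  refine lt_of_lt_of_le (EReal.coe_lt_coe_iff.2 hn) ?_
  refine Filter.le_liminf_of_le (by isBoundedDefault) ?_
  refine (eventually_ge_atTop n).mono fun m hm => ?_
  exact EReal.coe_le_coe_iff.2 (ray_gp_mono H.gen γ γ' hm)

end Hyp

end Crest.Agent.R193.A
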