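import Crest.Agent.R193.Defs
import Crest.Prelude.Def_CayleyBoundary

/-!
# R193/A/Word: word length, word metric, Gromov products, geodesics, rays
-/

set_option autoImplicit false
open Set Filter Topology

namespace Crest.Agent.R193.A

open Crest.GroupTheory

variable {G : Type} [Group G] {S : Set G}

theorem wl_le (l : List G) (hl : ∀ x ∈ l, x ∈ S ∨ x⁻¹ ∈ S) :
    wordLength S l.prod ≤ l.length := Nat.sInf_le ⟨l, rfl, hl, rfl⟩

theorem wl_ex (hS : Subgroup.closure S = ⊤) (g : G) :
    ∃ l : List G, l.length = wordLength S g ∧ (∀ x ∈ l, x ∈ S ∨ x⁻¹ ∈ S) ∧ l.prod = g := by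
  apply Nat.sInf_mem (s := {n : ℕ | ∃ l : List G, l.length = n ∧
    (∀ x ∈ l, x ∈ S ∨ x⁻¹ ∈ S) ∧ l.prod = g})
  have hm : g ∈ Subgroup.closure S := by rw [hS]; trivial
  rw [← Subgroup.mem_toSubmonoid, Subgroup.closure_toSubmonoid] at hm
  obtain ⟨l, h1, h2⟩ := Submonoid.exists_list_of_mem_closure hm
  exact ⟨_, l, rfl, h1, h2⟩

theorem wl_one : wordLength S (1 : G) = 0 := by
  have := wl_le (S := S) [] (by simp)
  simpa using this

theorem wl_inv (hS : Subgroup.closure S = ⊤) (g : G) : wordLength S g⁻¹ = wordLength S g := by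
  have h : ∀ g : G, wordLength S g⁻¹ ≤ wordLength S g := by
    intro g
    obtain ⟨l, h1, h2, h3⟩ := wl_ex hS g
    have := wl_le (S := S) (l.map fun x => x⁻¹).reverse (by
      intro x hx
      simp only [List.mem_reverse, List.mem_map] at hx
      obtain ⟨y, hy, rfl⟩ := hx
      rw [inv_inv]
      exact (h2 y hy).symm)
    rw [← List.prod_inv_reverse, h3] at this
    simpa [h1] using this
  refine le_antisymm (h g) ?_
  simpa using h g⁻¹

theorem wl_mul (hS : Subgroup.closure S = ⊤) (g h : G) :
    wordLength S (g * h) ≤ wordLength S g + wordLength S h := by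
  obtain ⟨l, h1, h2, h3⟩ := wl_ex hS g
  obtain ⟨l', h1', h2', h3'⟩ := wl_ex hS h
  have := wl_le (S := S) (l ++ l') (by
    intro a ha
    rcases List.mem_append.1 ha with ha | ha
    · exact h2 a ha
    · exact h2' a ha)
  rwa [List.prod_append, h3, h3', List.length_append, h1, h1'] at this

theorem wl_fin (hS : Subgroup.closure S = ⊤) (hf : S.Finite) (R : ℕ) :
    {g : G | wordLength S g ≤ R}.Finite := by
  have hT : (S ∪ S⁻¹).Finite := hf.union hf.inv
  induction R with
  | zero =>
    refine (finite_singleton (1 : G)).subset fun g hg => ?_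
    obtain ⟨l, h1, -, h3⟩ := wl_ex hS g
    have h0 : l.length = 0 := by
      have : wordLength S g ≤ 0 := hg
      omega
    rw [List.length_eq_zero_iff] at h0
    subst h0
    simpa using h3.symm
  | succ R ih =>
    refine ((finite_singleton (1 : G)).union (hT.image2 (· * ·) ih)).subset fun g hg => ?_
    obtain ⟨l, h1, h2, h3⟩ := wl_ex hS g
    have hg' : wordLength S g ≤ R + 1 := hg
    cases l with
    | nil => left; simpa using h3.symm
    | cons a l =>
      right
      refine ⟨a, ?_, l.prod, ?_, by simpa using h3⟩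
      · rcases h2 a (by simp) with h | h
        · exact Or.inl h
        · exact Or.inr (by simpa using h)
      · have := wl_le (S := S) l (fun x hx => h2 x (by simp [hx]))
        simp only [List.length_cons] at h1
        show wordLength S l.prod ≤ R
        omega

theorem wd_nonneg (x y : G) : 0 ≤ wordDist S x y := by unfold wordDist; positivity

theorem wd_self (x : G) : wordDist S x x = 0 := by simp [wordDist, wl_one]

theorem wd_comm (hS : Subgroup.closure S = ⊤) (x y : G) : wordDist S x y = wordDist S y x := by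
  unfold wordDist
  rw [← wl_inv hS]
  simp

theorem wd_tri (hS : Subgroup.closure S = ⊤) (x y z : G) :
    wordDist S x z ≤ wordDist S x y + wordDist S y z := by
  unfold wordDist
  have := wl_mul hS (x⁻¹ * y) (y⁻¹ * z)
  rw [show x⁻¹ * y * (y⁻¹ * z) = x⁻¹ * z by group] at this
  exact_mod_cast this

theorem wd_mul (g x y : G) : wordDist S (g * x) (g * y) = wordDist S x y := by
  unfold wordDist
  rw [show (g * x)⁻¹ * (g * y) = x⁻¹ * y by group]

theorem wd_one_left (g : G) : wordDist S 1 g = wordLength S g := by simp [wordDist]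

theorem wd_one_right (hS : Subgroup.closure S = ⊤) (g : G) : wordDist S g 1 = wordLength S g := by
  rw [wd_comm hS, wd_one_left]

theorem gp_comm (hS : Subgroup.closure S = ⊤) (w x y : G) :
    gromovProduct S w x y = gromovProduct S w y x := by
  unfold gromovProduct
  rw [wd_comm hS x y]; ring

theorem gp_nonneg (hS : Subgroup.closure S = ⊤) (w x y : G) : 0 ≤ gromovProduct S w x y := by
  unfold gromovProduct
  have := wd_tri hS x w y
  rw [wd_comm hS w y] at this
  linarith

theorem gp_le (hS : Subgroup.closure S = ⊤) (w x y : G) :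
    gromovProduct S w x y ≤ wordDist S y w := by
  unfold gromovProduct
  have := wd_tri hS x y w
  linarith

theorem gp_mul (g w x y : G) :
    gromovProduct S (g * w) (g * x) (g * y) = gromovProduct S w x y := by
  unfold gromovProduct
  rw [wd_mul, wd_mul, wd_mul]

theorem gp_self (w x : G) : gromovProduct S w x x = wordDist S x w := by
  unfold gromovProduct
  rw [wd_self]; ring

/-- change of base point -/
theorem gp_base (v w x z : G) :
    gromovProduct S w x z + gromovProduct S v x w + gromovProduct S v z w =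
      gromovProduct S v x z + wordDist S w v := by
  unfold gromovProduct
  ring

/-- geodesics from the identity -/
theorem exists_geo (hS : Subgroup.closure S = ⊤) (g : G) : ∃ p : ℕ → G, p 0 = 1 ∧
    (∀ i, wordLength S (p i) ≤ i) ∧
    (∀ i j, i ≤ j → j ≤ wordLength S g → wordDist S (p i) (p j) = (j : ℝ) - i) ∧
    (∀ i, i ≤ wordLength S g → gromovProduct S 1 (p i) g = i) := by
  obtain ⟨l, h1, h2, h3⟩ := wl_ex hS g
  let γ : ℕ → G := fun i => (l.take i).prod
  have g0 : γ 0 = 1 := by simp [γ]
  have g1 : γ (wordLength S g) = g := by simp [γ, ← h1, h3]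
  have hstep : ∀ i, wordDist S (γ i) (γ (i + 1)) ≤ 1 := by
    intro i
    by_cases hi : i < l.length
    · have : γ (i + 1) = γ i * l[i] := by
        simp only [γ]
        rw [List.prod_take_succ _ _ hi]
      rw [this]
      have := wl_le (S := S) [l[i]] (by simpa using h2 _ (List.getElem_mem hi))
      unfold wordDist
      simp only [inv_mul_cancel_left]
      simp only [List.prod_cons, List.prod_nil, mul_one, List.length_cons, List.length_nil] at this
      exact_mod_cast this
    · have : γ (i + 1) = γ i := by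
        simp only [γ]
        rw [List.take_of_length_le (by omega), List.take_of_length_le (by omega)]
      rw [this, wd_self]
      norm_num
  have hle : ∀ t s : ℕ, wordDist S (γ s) (γ (s + t)) ≤ t := by
    intro t
    induction t with
    | zero => intro s; simp [wd_self]
    | succ t ih =>
      intro s
      have a := wd_tri hS (γ s) (γ (s + t)) (γ (s + t + 1))
      have b := ih s
      have c := hstep (s + t)
      rw [← add_assoc]
      push_cast
      linarith
  have hle' : ∀ s t : ℕ, s ≤ t → wordDist S (γ s) (γ t) ≤ (t : ℝ) - s := by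
    intro s t hst
    obtain ⟨k, rfl⟩ := Nat.exists_eq_add_of_le hst
    have := hle k s
    push_cast
    linarith
  have heq : ∀ i j, i ≤ j → j ≤ wordLength S g → wordDist S (γ i) (γ j) = (j : ℝ) - i := by
    intro s t h1 h2
    have a1 := hle' 0 s (Nat.zero_le _)
    have a2 := hle' s t h1
    have a3 := hle' t _ h2
    rw [g0] at a1
    rw [g1] at a3
    have b1 := wd_tri hS 1 (γ s) g
    have b2 := wd_tri hS (γ s) (γ t) g
    rw [wd_one_left] at b1
    push_cast at a1
    linarith
  refine ⟨γ, g0, fun i => ?_, heq, fun i hi => ?_⟩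
  · have := hle' 0 i (Nat.zero_le _)
    rw [g0, wd_one_left] at this
    have h' : (wordLength S (γ i) : ℝ) ≤ i := by simpa using this
    exact_mod_cast h'
  · have a1 := heq 0 i (Nat.zero_le _) hi
    have a2 := heq i _ hi le_rfl
    rw [g0] at a1
    rw [g1] at a2
    unfold gromovProduct
    rw [wd_comm hS (γ i) 1, a1, a2, wd_one_right hS]
    push_cast
    ring

/-! ### rays -/

theorem ray_len (γ : CayleyRay S) (n : ℕ) : wordLength S (γ.toFun n) = n := by
  have := γ.dist_eq 0 n
  rw [γ.map_zero, wd_one_left] at this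
  have h : (wordLength S (γ.toFun n) : ℝ) = n := by simpa using this
  exact_mod_cast h

theorem ray_gp (hS : Subgroup.closure S = ⊤) (γ : CayleyRay S) {m n : ℕ} (h : m ≤ n) :
    gromovProduct S 1 (γ.toFun m) (γ.toFun n) = m := by
  unfold gromovProduct
  have h' : (m : ℝ) ≤ n := by exact_mod_cast h
  rw [wd_one_right hS, wd_one_right hS, ray_len, ray_len, γ.dist_eq, abs_of_nonpos (by linarith)]
  ring

theorem ray_gp_eq (hS : Subgroup.closure S = ⊤) (γ γ' : CayleyRay S) (n : ℕ) :
    gromovProduct S 1 (γ.toFun n) (γ'.toFun n) = n - wordDist S (γ.toFun n) (γ'.toFun n) / 2 := by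
  unfold gromovProduct
  rw [wd_one_right hS, wd_one_right hS, ray_len, ray_len]
  ring

theorem ray_gp_mono (hS : Subgroup.closure S = ⊤) (γ γ' : CayleyRay S) :
    Monotone fun n => gromovProduct S 1 (γ.toFun n) (γ'.toFun n) := by
  refine monotone_nat_of_le_succ fun n => ?_
  rw [ray_gp_eq hS, ray_gp_eq hS]
  have a := wd_tri hS (γ.toFun (n + 1)) (γ.toFun n) (γ'.toFun (n + 1))
  have b := wd_tri hS (γ.toFun n) (γ'.toFun n) (γ'.toFun (n + 1))
  have c := γ.dist_eq (n + 1) n
  have d := γ'.dist_eq n (n + 1)
  push_cast at c d ⊢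
  rw [show ((n : ℝ) + 1 - n) = 1 by ring, abs_one] at c
  rw [show ((n : ℝ) - (n + 1)) = -1 by ring, abs_neg, abs_one] at d
  linarith

/-- König's lemma along the ultrafilter -/
theorem exists_ray (hS : Subgroup.closure S = ⊤) (hf : S.Finite) (x : ℕ → G)
    (hx : ∀ i : ℕ, ∀ᶠ n in 𝒰, i ≤ wordLength S (x n)) :
    ∃ γ : CayleyRay S, ∀ i : ℕ, ∀ᶠ n in 𝒰, gromovProduct S 1 (γ.toFun i) (x n) = i := by
  choose p h0 h1 h2 h3 using exists_geo hS
  have key : ∀ i : ℕ, ∃ a : G, ∀ᶠ n in 𝒰, p (x n) i = a := by
    intro i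
    have hfin := wl_fin hS hf i
    have hm : {g : G | wordLength S g ≤ i} ∈ Ultrafilter.map (fun n => p (x n) i) (hyperfilter ℕ) := by
      rw [Ultrafilter.mem_map]
      exact Filter.mem_of_superset Filter.univ_mem fun n _ => h1 _ _
    obtain ⟨a, -, ha⟩ := Ultrafilter.eq_pure_of_finite_mem hfin hm
    refine ⟨a, ?_⟩
    have : {a} ∈ Ultrafilter.map (fun n => p (x n) i) (hyperfilter ℕ) := by
      rw [ha]; simp
    rw [Ultrafilter.mem_map] at this
    exact this
  choose γ hγ using key
  have hd : ∀ i j : ℕ, i ≤ j → wordDist S (γ i) (γ j) = (j : ℝ) - i := by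
    intro i j hij
    obtain ⟨n, ⟨a, b⟩, c⟩ := (((hγ i).and (hγ j)).and (hx j)).exists
    rw [← a, ← b]
    exact h2 _ i j hij c
  refine ⟨⟨γ, ?_, fun m n => ?_⟩, fun i => ?_⟩
  · obtain ⟨n, a⟩ := (hγ 0).exists
    rw [← a, h0]
  · rcases le_total m n with h | h
    · have h' : (m : ℝ) ≤ n := by exact_mod_cast h
      rw [hd m n h, abs_of_nonpos (by linarith)]; ring
    · have h' : (n : ℝ) ≤ m := by exact_mod_cast h
      rw [wd_comm hS, hd n m h, abs_of_nonneg (by linarith)]
  · filter_upwards [hγ i, hx i] with n a b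
    show gromovProduct S 1 (γ i) (x n) = i
    rw [← a]
    exact h3 _ i b

end Crest.Agent.R193.A
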